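import Vale.Agent.H12.Ryser

/-!
Ryser's inequality `τ ≤ (r - 1) ν` for `r`-partite `r`-uniform hypergraphs of small maximum
degree. The hypergraph is given by a finite set `E` of functions `e : Fin r → α`: its vertices
are the pairs `(i, x)`, part `i` is `{i} × α`, and `e` stands for the edge `{(i, e i) : i}`.
-/

namespace Vale.Agent.Results.P045.A_MaxDegreeFive

theorem result (r D : ℕ) (α : Type*) [DecidableEq α] (E : Finset (Fin r → α))
    (hD : (D ≤ 3 ∧ 4 ≤ r) ∨ (D = 4 ∧ 7 ≤ r) ∨ (D = 5 ∧ 14 ≤ r))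
    (hdeg : ∀ (i : Fin r) (x : α), (E.filter (fun e => e i = x)).card ≤ D) :
    ∃ (M : Finset (Fin r → α)) (C : Finset (Fin r × α)),
      M ⊆ E ∧ (∀ e ∈ M, ∀ f ∈ M, e ≠ f → ∀ i, e i ≠ f i) ∧
      (∀ e ∈ E, ∃ i, (i, e i) ∈ C) ∧ C.card ≤ (r - 1) * M.card :=
  Vale.Agent.H12.ryser_deg_le_five hD E hdeg

end Vale.Agent.Results.P045.A_MaxDegreeFive
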