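import Vale.Agent.H12.LovFive

/-!
A 5-partite 5-uniform hypergraph whose matching number is not lowered by the removal of any four
vertices. The hypergraph is given by a finite set `E` of functions `e : Fin 5 → Fin 6`: its
vertices are the pairs `(i, x)`, part `i` is `{i} × Fin 6`, and `e` stands for the edge
`{(i, e i) : i}`.
-/

namespace Vale.Agent.Results.P045.B_LovaszFive

theorem result :
    ∃ E : Finset (Fin 5 → Fin 6),
      (∀ M : Finset (Fin 5 → Fin 6), M ⊆ E →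
        (∀ e ∈ M, ∀ f ∈ M, e ≠ f → ∀ i, e i ≠ f i) → M.card ≤ 2) ∧
      (∀ S : Finset (Fin 5 × Fin 6), S.card ≤ 4 →
        ∃ M : Finset (Fin 5 → Fin 6), M ⊆ E ∧
          (∀ e ∈ M, ∀ f ∈ M, e ≠ f → ∀ i, e i ≠ f i) ∧
          (∀ e ∈ M, ∀ i, (i, e i) ∉ S) ∧ M.card = 2) :=
  Vale.Agent.H12.Lov.h5_main

end Vale.Agent.Results.P045.B_LovaszFive
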