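import Vale.Agent.H24.Lov.Main

/-!
For every `r ≥ 3` an `r`-partite `r`-uniform hypergraph whose matching number is not lowered by
the removal of any `r - 1` vertices. The hypergraph is given by a finite set `E` of functions
`e : Fin r → Fin (r * (r - 1))`: its vertices are the pairs `(i, x)`, part `i` is
`{i} × Fin (r * (r - 1))`, and `e` stands for the edge `{(i, e i) : i}`.

The family (`Vale.Agent.H24.Lov.edges`): put `k = (r - 1) ^ 2`; for `a < k` the class of `a` is
the set of vertices `(i, a)` (all parts `i` when `r` is odd, all parts `i ≠ a mod r` when `r` is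
even), an odd number of vertices; `E` is the set of all `e` meeting every class in an even number
of vertices. A matching leaves a vertex of every class uncovered, hence at least
`k = r * (r - 2) + 1` vertices, hence at least `r - 1` in every part; and any `r - 1` vertices
extend to a leftover set with exactly `r - 1` vertices in every part and an odd number in every
class, whose complement is covered by `k` disjoint edges.
-/

namespace Vale.Agent.Results.P045.C_LovaszEveryR

theorem result :
    ∀ r : ℕ, 3 ≤ r →
      ∃ E : Finset (Fin r → Fin (r * (r - 1))),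
        (∀ M : Finset (Fin r → Fin (r * (r - 1))), M ⊆ E →
          (∀ e ∈ M, ∀ f ∈ M, e ≠ f → ∀ i, e i ≠ f i) → M.card ≤ (r - 1) ^ 2) ∧
        (∀ S : Finset (Fin r × Fin (r * (r - 1))), S.card ≤ r - 1 →
          ∃ M : Finset (Fin r → Fin (r * (r - 1))), M ⊆ E ∧
            (∀ e ∈ M, ∀ f ∈ M, e ≠ f → ∀ i, e i ≠ f i) ∧
            (∀ e ∈ M, ∀ i, (i, e i) ∉ S) ∧ M.card = (r - 1) ^ 2) :=
  fun r hr => Vale.Agent.H24.Lov.main r hr

end Vale.Agent.Results.P045.C_LovaszEveryR
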