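import Vale.Agent.H12.Ryser
import Vale.Agent.H24.Lov.Main

/-!
P045, two results in one statement.

1. Ryser's inequality `τ ≤ (r - 1) ν` for `r`-partite `r`-uniform hypergraphs of small maximum
   degree (`Vale.Agent.H12.ryser_deg_le_five`).
2. For every `r ≥ 3` an `r`-partite `r`-uniform hypergraph whose matching number is not lowered
   by the removal of any `r - 1` vertices (`Vale.Agent.H24.Lov.main`).

A hypergraph is given by a finite set `E` of functions `e : Fin r → α`: its vertices are the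
pairs `(i, x)`, part `i` is `{i} × α`, and `e` stands for the edge `{(i, e i) : i}`.
-/

namespace Vale.Agent.Results.P045.D_RyserAndLovasz

universe u

theorem result :
    (∀ (r D : ℕ) (α : Type u) [DecidableEq α] (E : Finset (Fin r → α)),
      ((D ≤ 3 ∧ 4 ≤ r) ∨ (D = 4 ∧ 7 ≤ r) ∨ (D = 5 ∧ 14 ≤ r)) →
      (∀ (i : Fin r) (x : α), (E.filter (fun e => e i = x)).card ≤ D) →
      ∃ (M : Finset (Fin r → α)) (C : Finset (Fin r × α)),
        M ⊆ E ∧ (∀ e ∈ M, ∀ f ∈ M, e ≠ f → ∀ i, e i ≠ f i) ∧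
        (∀ e ∈ E, ∃ i, (i, e i) ∈ C) ∧ C.card ≤ (r - 1) * M.card) ∧
    (∀ r : ℕ, 3 ≤ r →
      ∃ E : Finset (Fin r → Fin (r * (r - 1))),
        (∀ M : Finset (Fin r → Fin (r * (r - 1))), M ⊆ E →
          (∀ e ∈ M, ∀ f ∈ M, e ≠ f → ∀ i, e i ≠ f i) → M.card ≤ (r - 1) ^ 2) ∧
        (∀ S : Finset (Fin r × Fin (r * (r - 1))), S.card ≤ r - 1 →
          ∃ M : Finset (Fin r → Fin (r * (r - 1))), M ⊆ E ∧
            (∀ e ∈ M, ∀ f ∈ M, e ≠ f → ∀ i, e i ≠ f i) ∧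
            (∀ e ∈ M, ∀ i, (i, e i) ∉ S) ∧ M.card = (r - 1) ^ 2)) :=
  ⟨fun _ _ _ _ E hD hdeg => Vale.Agent.H12.ryser_deg_le_five hD E hdeg,
    fun r hr => Vale.Agent.H24.Lov.main r hr⟩

end Vale.Agent.Results.P045.D_RyserAndLovasz
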